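import Mathlib

namespace Vale.Agent.P252

/-- the partial derivative of `f` in the `i`-th coordinate direction -/
noncomputable def pd {n : ℕ} (f : (Fin n → ℝ) → ℝ) (i : Fin n) (x : Fin n → ℝ) : ℝ :=
  lineDeriv ℝ f x (Pi.single i 1)

/-- the Hessian matrix of second partial derivatives -/
noncomputable def hess {n : ℕ} (f : (Fin n → ℝ) → ℝ) (x : Fin n → ℝ) : Matrix (Fin n) (Fin n) ℝ :=
  Matrix.of fun i j => pd (pd f j) i x

/-- `w = (det D²u) ^ (-(n+1)/(n+2))` -/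
noncomputable def wfun {n : ℕ} (u : (Fin n → ℝ) → ℝ) (x : Fin n → ℝ) : ℝ :=
  (hess u x).det ^ (-((n : ℝ) + 1) / ((n : ℝ) + 2))

/-- the affine maximal equation `∑ U^{ij} w_{ij} = 0` on the whole space -/
def AffineMaximal {n : ℕ} (u : (Fin n → ℝ) → ℝ) : Prop :=
  ∀ x, ∑ i, ∑ j, ((hess u x).det * (hess u x)⁻¹ i j) * hess (wfun u) x i j = 0

end Vale.Agent.P252
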