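import Mathlib

/-!
Global solutions of the planar system
`Q' = Q * F1 (Q, E)`, `E' = E * F2 (Q, E)` inside the invariant rectangle.
-/

namespace Vale.Agent.P252

open Set Metric
open scoped NNReal Topology

theorem exists_global {E : Type*} [NormedAddCommGroup E] [NormedSpace ℝ E] [CompleteSpace E]
    (F : E → E) (K L : ℝ≥0) (hK : LipschitzWith K F) (hL : ∀ x, ‖F x‖ ≤ L) (x0 : E) :
    ∃ X : ℝ → E, X 0 = x0 ∧ ∀ t, HasDerivAt X (F (X t)) t := by
  have h1 : ∀ N : ℕ, ∃ X : ℝ → E, X 0 = x0 ∧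
      ∀ t ∈ Ioo (-(N + 1 : ℝ)) (N + 1), HasDerivAt X (F (X t)) t := by
    intro N
    have hN : (0 : ℝ) ≤ N + 1 := by positivity
    have hp : IsPicardLindelof (fun _ => F) (⟨0, by constructor <;> linarith⟩ :
        Icc (-(N + 1 : ℝ)) (N + 1)) x0 (L * (N + 1)) 0 L K :=
      IsPicardLindelof.of_time_independent (fun x _ => hL x) hK.lipschitzOnWith (by simp)
    obtain ⟨X, h0, hX⟩ := hp.exists_eq_forall_mem_Icc_hasDerivWithinAt₀
    exact ⟨X, h0, fun t ht => (hX t (Ioo_subset_Icc_self ht)).hasDerivAt (Icc_mem_nhds ht.1 ht.2)⟩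
  choose X h0 hX using h1
  have h2 : ∀ N M : ℕ, N ≤ M → EqOn (X N) (X M) (Ioo (-(N + 1 : ℝ)) (N + 1)) := by
    intro N M hNM
    have hN : (0 : ℝ) < N + 1 := by positivity
    have hc : (N : ℝ) ≤ M := by exact_mod_cast hNM
    refine ODE_solution_unique_of_mem_Ioo (v := fun _ => F) (s := fun _ => univ) (t₀ := 0)
      (fun _ _ => hK.lipschitzOnWith) ⟨by linarith, hN⟩ (fun t ht => ⟨hX N t ht, trivial⟩)
      (fun t ht => ⟨hX M t ⟨by linarith [ht.1], by linarith [ht.2]⟩, trivial⟩) ?_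
    rw [h0, h0]
  have h3 : ∀ t : ℝ, t ∈ Ioo (-((⌈|t|⌉₊ : ℕ) + 1 : ℝ)) ((⌈|t|⌉₊ : ℕ) + 1) := by
    intro t
    have := Nat.le_ceil |t|
    constructor <;> linarith [neg_abs_le t, le_abs_self t]
  refine ⟨fun t => X ⌈|t|⌉₊ t, h0 _, fun t => ?_⟩
  have h4 : (fun t => X ⌈|t|⌉₊ t) =ᶠ[𝓝 t] X (⌈|t|⌉₊ + 1) := by
    filter_upwards [Ioo_mem_nhds (sub_one_lt t) (lt_add_one t)] with s hs
    refine h2 _ _ ?_ (h3 s)
    rw [Nat.ceil_le]
    have := Nat.le_ceil |t|
    push_cast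
    rw [abs_le]
    constructor <;> linarith [neg_abs_le t, le_abs_self t, hs.1, hs.2]
  have h5 := hX (⌈|t|⌉₊ + 1) t (by
    have := h3 t
    push_cast
    constructor <;> linarith [this.1, this.2])
  rw [← h4.eq_of_nhds] at h5
  exact h5.congr_of_eventuallyEq h4

theorem barrier {f f' : ℝ → ℝ} {c : ℝ} (hf : ∀ t, HasDerivAt f (f' t) t) (h0 : f 0 ≤ c)
    (h : ∀ t, c < f t → f' t ≤ 0) {t : ℝ} (ht : 0 ≤ t) : f t ≤ c := by
  refine le_of_forall_pos_le_add fun ε hε => ?_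
  have hδ : 0 < ε / (1 + t) := by positivity
  have := image_le_of_deriv_right_lt_deriv_boundary (f := f) (f' := f') (a := 0) (b := t)
    (fun x _ => (hf x).continuousAt.continuousWithinAt) (fun x _ => (hf x).hasDerivWithinAt)
    (B := fun s => c + ε / (1 + t) * (1 + s)) (B' := fun _ => ε / (1 + t)) (by simp; linarith)
    (fun x => by simpa using (((hasDerivAt_id x).const_add 1).const_mul (ε / (1 + t))).const_add c)
    (fun x hx hfx => by
      have : 0 < ε / (1 + t) * (1 + x) := by have := hx.1; positivity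
      linarith [h x (by rw [hfx]; linarith)]) (x := t) ⟨ht, le_rfl⟩
  rwa [div_mul_cancel₀ _ (by positivity)] at this

theorem lip_exp_min (c : ℝ) : LipschitzWith (Real.exp c).toNNReal fun a => Real.exp (min a c) := by
  have h : LipschitzOnWith (Real.exp c).toNNReal Real.exp (Iic c) := by
    refine (convex_Iic c).lipschitzOnWith_of_nnnorm_hasDerivWithin_le
      (fun x _ => (Real.hasDerivAt_exp x).hasDerivWithinAt) fun x hx => ?_
    rw [← NNReal.coe_le_coe, coe_nnnorm, Real.norm_of_nonneg (Real.exp_pos x).le,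
      Real.coe_toNNReal _ (Real.exp_pos c).le]
    exact Real.exp_le_exp.2 hx
  have h2 : LipschitzWith 1 fun a : ℝ => min a c := LipschitzWith.id.min_const c
  have := h.comp (s := univ) h2.lipschitzOnWith (fun a _ => min_le_right a c)
  rw [mul_one, lipschitzOnWith_univ] at this
  exact this

/-- logarithmic growth rate of `Q` -/
def F1 (k Q E : ℝ) : ℝ := (1 - Q) * (1 + E * (1 - Q)) - k * Q

/-- logarithmic growth rate of `E` -/
noncomputable def F2 (k Q E : ℝ) : ℝ := 2 * k - Q / 2 - E * (1 - Q) * (2 * k - (2 * k + 4) * Q)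

theorem exists_planar {k : ℝ} (hk : 9 / 2 ≤ k) {Q0 E0 : ℝ} (hQ : 0 < Q0) (hQ' : Q0 ≤ 1 / 2)
    (hE : 0 < E0) (hE' : E0 ≤ 2 * k - 2) :
    ∃ Q E : ℝ → ℝ, Q 0 = Q0 ∧ E 0 = E0 ∧ ∀ t, 0 ≤ t → 0 < Q t ∧ Q t ≤ 1 / 2 ∧ 0 < E t ∧
      HasDerivAt Q (Q t * F1 k (Q t) (E t)) t ∧ HasDerivAt E (E t * F2 k (Q t) (E t)) t := by
  set α := Real.log (1 / 2) with hα
  set β := Real.log (2 * k - 2) with hβ
  have eα : Real.exp α = 1 / 2 := Real.exp_log (by norm_num)
  have eβ : Real.exp β = 2 * k - 2 := Real.exp_log (by linarith)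
  let G : ℝ × ℝ → ℝ × ℝ := fun x => (F1 k x.1 x.2, F2 k x.1 x.2)
  let T : ℝ × ℝ → ℝ × ℝ := fun x => (Real.exp (min x.1 α), Real.exp (min x.2 β))
  let S : Set (ℝ × ℝ) := Icc 0 (1 / 2) ×ˢ Icc 0 (2 * k - 2)
  have hS : IsCompact S := isCompact_Icc.prod isCompact_Icc
  have hG : ContDiff ℝ 1 G := by unfold G F1 F2; fun_prop
  obtain ⟨K, hK⟩ := hG.contDiffOn.exists_lipschitzOnWith one_ne_zero
    ((convex_Icc _ _).prod (convex_Icc _ _)) hS
  obtain ⟨L, hL⟩ := hS.exists_bound_of_continuousOn hG.continuous.continuousOn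
  have hT : ∀ x, T x ∈ S := fun x =>
    ⟨⟨(Real.exp_pos _).le, eα ▸ Real.exp_le_exp.2 (min_le_right _ _)⟩,
      ⟨(Real.exp_pos _).le, eβ ▸ Real.exp_le_exp.2 (min_le_right _ _)⟩⟩
  have hTl := ((lip_exp_min α).comp (LipschitzWith.prod_fst (α := ℝ) (β := ℝ))).prodMk
    ((lip_exp_min β).comp (LipschitzWith.prod_snd (α := ℝ) (β := ℝ)))
  have hF := hK.comp (s := univ) hTl.lipschitzOnWith (fun x _ => hT x)
  rw [lipschitzOnWith_univ] at hF
  obtain ⟨X, h0, hX⟩ := exists_global (G ∘ T) _ L.toNNReal hF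
    (fun x => (hL _ (hT x)).trans (Real.le_coe_toNNReal L)) (Real.log Q0, Real.log E0)
  have d1 : ∀ t, HasDerivAt (fun t => (X t).1) (F1 k (T (X t)).1 (T (X t)).2) t :=
    fun t => ((ContinuousLinearMap.fst ℝ ℝ ℝ).hasFDerivAt.comp_hasDerivAt t (hX t) :)
  have d2 : ∀ t, HasDerivAt (fun t => (X t).2) (F2 k (T (X t)).1 (T (X t)).2) t :=
    fun t => ((ContinuousLinearMap.snd ℝ ℝ ℝ).hasFDerivAt.comp_hasDerivAt t (hX t) :)
  have b1 : ∀ t, 0 ≤ t → (X t).1 ≤ α := fun t ht => by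
    refine barrier d1 (by rw [h0]; exact Real.log_le_log hQ hQ') (fun t h => ?_) ht
    have e : (T (X t)).1 = 1 / 2 := by simp only [T]; rw [min_eq_right h.le, eα]
    have := (hT (X t)).2.2
    rw [e, F1]
    linarith
  have b2 : ∀ t, 0 ≤ t → (X t).2 ≤ β := fun t ht => by
    refine barrier d2 (by rw [h0]; exact Real.log_le_log hE hE') (fun t h => ?_) ht
    have e : (T (X t)).2 = 2 * k - 2 := by simp only [T]; rw [min_eq_right h.le, eβ]
    obtain ⟨q0, q1⟩ := (hT (X t)).1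
    rw [e, F2]
    generalize (T (X t)).1 = q at q0 q1
    obtain ⟨d, rfl⟩ : ∃ d, q = 1 / 2 - d := ⟨1 / 2 - q, by ring⟩
    obtain ⟨j, rfl⟩ : ∃ j, k = 9 / 2 + j := ⟨k - 9 / 2, by ring⟩
    have hd : 0 ≤ d := by linarith
    have hj : 0 ≤ j := by linarith
    have : 0 ≤ d * j := by positivity
    have : 0 ≤ d * j * j := by positivity
    have : 0 ≤ d * d * j * j := by positivity
    have : 0 ≤ d * d * j := by positivity
    nlinarith [mul_nonneg hd hd, mul_nonneg hj hj]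
  refine ⟨fun t => Real.exp (X t).1, fun t => Real.exp (X t).2, by simp only [h0]; exact Real.exp_log hQ,
    by simp only [h0]; exact Real.exp_log hE, fun t ht => ⟨Real.exp_pos _,
      eα ▸ Real.exp_le_exp.2 (b1 t ht), Real.exp_pos _, ?_, ?_⟩⟩
  · have := (d1 t).exp
    simp only [T] at this
    rwa [min_eq_left (b1 t ht), min_eq_left (b2 t ht)] at this
  · have := (d2 t).exp
    simp only [T] at this
    rwa [min_eq_left (b1 t ht), min_eq_left (b2 t ht)] at this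

/-- solutions of smooth ordinary differential equations are smooth -/
theorem contDiffOn_of_ode {E : Type*} [NormedAddCommGroup E] [NormedSpace ℝ E]
    {U : Set ℝ} (hU : IsOpen U) {f : ℝ → E} {F : ℝ × E → E}
    (hF : ∀ s ∈ U, ContDiffAt ℝ (⊤ : ℕ∞) F (s, f s))
    (hf : ∀ s ∈ U, HasDerivAt f (F (s, f s)) s) : ContDiffOn ℝ (⊤ : ℕ∞) f U := by
  rw [contDiffOn_infty]
  intro n
  induction n with
  | zero => exact contDiffOn_zero.2 fun s hs => (hf s hs).continuousAt.continuousWithinAt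
  | succ n ih =>
    push_cast
    rw [contDiffOn_succ_iff_deriv_of_isOpen hU]
    refine ⟨fun s hs => (hf s hs).differentiableAt.differentiableWithinAt, by simp, ?_⟩
    refine ContDiffOn.congr (f := fun s => F (s, f s)) (fun s hs => ?_) fun s hs => (hf s hs).deriv
    exact ((hF s hs).of_le (by exact_mod_cast le_top)).comp_contDiffWithinAt s
      (contDiffWithinAt_id.prodMk (ih s hs))

end Vale.Agent.P252
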