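import Mathlib

/-!
Matrices of the form `[[c, b y^T], [b y, α I + a y y^T]]`.
-/

namespace Vale.Agent.P252

open Matrix

variable {m : ℕ}

/-- the block matrix -/
def mat (α a b c : ℝ) (y : Fin m → ℝ) : Matrix (Fin (m + 1)) (Fin (m + 1)) ℝ :=
  Matrix.of fun i j => Fin.cases (Fin.cases c (fun j => b * y j) j)
    (fun i => Fin.cases (b * y i) (fun j => (if i = j then α else 0) + a * y i * y j) j) i

variable (α a b c : ℝ) (y : Fin m → ℝ)

@[simp] theorem mat_zz : mat α a b c y 0 0 = c := rfl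
@[simp] theorem mat_zs (j : Fin m) : mat α a b c y 0 j.succ = b * y j := rfl
@[simp] theorem mat_sz (i : Fin m) : mat α a b c y i.succ 0 = b * y i := rfl
@[simp] theorem mat_ss (i j : Fin m) :
    mat α a b c y i.succ j.succ = (if i = j then α else 0) + a * y i * y j := rfl

theorem mat_mul {α a b c α' a' b' c' s : ℝ} {y : Fin m → ℝ} (hs : ∑ j, y j ^ 2 = s)
    (h1 : α * α' = 1) (h2 : c * c' + b * b' * s = 1) (h3 : c * b' + b * α' + b * a' * s = 0)
    (h4 : b * c' + α * b' + a * b' * s = 0) (h5 : b * b' + α * a' + a * α' + a * a' * s = 0) :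
    mat α a b c y * mat α' a' b' c' y = 1 := by
  have e : ∀ (u : ℝ) (f : Fin m → ℝ), (∀ j, f j = u * y j ^ 2) → ∑ j, f j = u * s := by
    intro u f hf
    rw [← hs, Finset.mul_sum]
    exact Finset.sum_congr rfl fun j _ => hf j
  ext i j
  rw [Matrix.mul_apply, Fin.sum_univ_succ]
  refine Fin.cases ?_ (fun i => ?_) i <;> refine Fin.cases ?_ (fun j => ?_) j
  · simp only [mat_zz, mat_zs, mat_sz, Matrix.one_apply_eq]
    rw [e (b * b') _ fun j => by ring, h2]
  · simp only [mat_zz, mat_zs, mat_ss, mul_add, Finset.sum_add_distrib, mul_ite, mul_zero,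
      Finset.sum_ite_eq', Finset.mem_univ, if_true]
    rw [e (b * a' * y j) _ fun j => by ring, Matrix.one_apply_ne (Fin.succ_ne_zero j).symm]
    linear_combination y j * h3
  · simp only [mat_zz, mat_sz, mat_ss, add_mul, Finset.sum_add_distrib, ite_mul, zero_mul,
      Finset.sum_ite_eq, Finset.mem_univ, if_true]
    rw [e (a * b' * y i) _ fun j => by ring, Matrix.one_apply_ne (Fin.succ_ne_zero i)]
    linear_combination y i * h4
  · simp only [mat_zs, mat_sz, mat_ss, add_mul, mul_add, Finset.sum_add_distrib, ite_mul, zero_mul,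
      mul_ite, mul_zero, Finset.sum_ite_eq, Finset.sum_ite_eq', Finset.mem_univ, if_true]
    rw [e (a * a' * y i * y j) _ fun j => by ring, Matrix.one_apply]
    simp only [Fin.succ_inj]
    split_ifs with h
    · linear_combination y i * y j * h5 + h1
    · linear_combination y i * y j * h5

theorem mat_pair {α a b c α' a' b' c' s d : ℝ} {y : Fin m → ℝ} (hs : ∑ j, y j ^ 2 = s) :
    ∑ i, ∑ j, (d * mat α a b c y i j) * mat α' a' b' c' y i j =
      d * (c * c' + 2 * b * b' * s + m * α * α' + (α * a' + a * α') * s + a * a' * s ^ 2) := by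
  have e : ∀ (u : ℝ) (f : Fin m → ℝ), (∀ j, f j = u * y j ^ 2) → ∑ j, f j = u * s := by
    intro u f hf
    rw [← hs, Finset.mul_sum]
    exact Finset.sum_congr rfl fun j _ => hf j
  have e2 : ∀ i, ∑ j, (d * ((if i = j then α else 0) + a * y i * y j)) *
      ((if i = j then α' else 0) + a' * y i * y j) =
      d * α * α' + (d * (α * a' + a * α') + d * a * a' * s) * y i ^ 2 := by
    intro i
    simp only [add_mul, mul_add, Finset.sum_add_distrib, ite_mul, zero_mul,
      mul_ite, mul_zero, Finset.sum_ite_eq, Finset.mem_univ, if_true]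
    rw [e (d * a * a' * y i ^ 2) _ fun j => by ring]
    ring
  simp only [Fin.sum_univ_succ, mat_zz, mat_zs, mat_sz, mat_ss, e2, Finset.sum_add_distrib]
  rw [e (d * b * b') _ fun j => by ring, e _ _ fun j => rfl]
  simp only [Finset.sum_const, Finset.card_univ, Fintype.card_fin, nsmul_eq_mul]
  ring

theorem mat_inv {α a b c s D : ℝ} {y : Fin m → ℝ} (hs : ∑ j, y j ^ 2 = s) (hα : α ≠ 0)
    (hD : c * (α + a * s) - b ^ 2 * s = D) (hD0 : D ≠ 0) :
    (mat α a b c y)⁻¹ = mat α⁻¹ ((b ^ 2 - a * c) / (α * D)) (-b / D) ((α + a * s) / D) y := by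
  refine Matrix.inv_eq_right_inv (mat_mul hs ?_ ?_ ?_ ?_ ?_) <;> field_simp
  all_goals subst hD; ring

theorem mat_eq {α a b c s d α' a' b' c' : ℝ} {y : Fin m → ℝ} (hs : ∑ j, y j ^ 2 = s) (hα : α ≠ 0)
    (hD : c * (α + a * s) - b ^ 2 * s ≠ 0)
    (h : α * ((α + a * s) * c' - 2 * b * b' * s + c * (α' + a' * s)) +
      (m - 1) * (c * (α + a * s) - b ^ 2 * s) * α' = 0) :
    ∑ i, ∑ j, (d * (mat α a b c y)⁻¹ i j) * mat α' a' b' c' y i j = 0 := by
  obtain ⟨D, hD'⟩ : ∃ D, c * (α + a * s) - b ^ 2 * s = D := ⟨_, rfl⟩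
  rw [hD'] at hD h
  rw [mat_inv hs hα hD' hD, mat_pair hs]
  refine mul_eq_zero_of_right _ ?_
  field_simp
  linear_combination h - (α' + a' * s) * hD'

theorem mat_det {α a b c s : ℝ} {y : Fin m → ℝ} (hs : ∑ j, y j ^ 2 = s) (hα : α ≠ 0) (hc : c ≠ 0) :
    (mat α a b c y).det = α ^ m * (c * (α + a * s) - b ^ 2 * s) / α := by
  have e : ∀ (u : ℝ) (f : Fin m → ℝ), (∀ j, f j = u * y j ^ 2) → ∑ j, f j = u * s := by
    intro u f hf
    rw [← hs, Finset.mul_sum]
    exact Finset.sum_congr rfl fun j _ => hf j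
  let A : Matrix (Fin (m + 1)) (Fin 2) ℝ :=
    Matrix.of fun i => Fin.cases ![0, c⁻¹] (fun i => ![y i / α, 0]) i
  let B : Matrix (Fin 2) (Fin (m + 1)) ℝ :=
    Matrix.of ![Fin.cases b fun j => a * y j, Fin.cases 0 fun j => b * y j]
  have h : mat α a b c y = Matrix.diagonal (Fin.cases c fun _ => α) * (1 + A * B) := by
    ext i j
    rw [Matrix.diagonal_mul, Matrix.add_apply, Matrix.mul_apply, Fin.sum_univ_two]
    refine Fin.cases ?_ (fun i => ?_) i <;> refine Fin.cases ?_ (fun j => ?_) j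
    · simp [A, B]
    · simp [A, B, Matrix.one_apply_ne (Fin.succ_ne_zero j).symm]
      field_simp
    · simp [A, B, Matrix.one_apply_ne (Fin.succ_ne_zero i)]
      field_simp
    · simp [A, B, Matrix.one_apply]
      split_ifs <;> field_simp <;> ring
  rw [h, Matrix.det_mul, Matrix.det_one_add_mul_comm, Matrix.det_diagonal, Matrix.det_fin_two]
  simp only [Matrix.add_apply, Matrix.mul_apply, Fin.sum_univ_succ, Fin.prod_univ_succ, A, B]
  simp
  rw [e (a / α) _ fun j => by ring, e (b / α) _ fun j => by ring]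
  field_simp

theorem mat_posDef {α a b c s : ℝ} {y : Fin m → ℝ} (hs : ∑ j, y j ^ 2 = s) (hα : 0 < α)
    (hc : 0 < c) (hD : 0 < c * (α + a * s) - b ^ 2 * s) : (mat α a b c y).PosDef := by
  rw [Matrix.posDef_iff_dotProduct_mulVec]
  refine ⟨?_, fun x hx => ?_⟩
  · ext i j
    rw [Matrix.conjTranspose_apply, star_trivial]
    refine Fin.cases ?_ (fun i => ?_) i <;> refine Fin.cases ?_ (fun j => ?_) j
    · rfl
    · rfl
    · rfl
    · simp only [mat_ss, eq_comm]
      ring
  · set η := ∑ j, y j * x j.succ with hη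
    set N := ∑ j : Fin m, x j.succ ^ 2 with hN
    have e : star x ⬝ᵥ mat α a b c y *ᵥ x = c * x 0 ^ 2 + 2 * b * x 0 * η + α * N + a * η ^ 2 := by
      have e1 : ∀ i, ∑ j, ((if i = j then α else 0) + a * y i * y j) * x j.succ =
          α * x i.succ + a * y i * η := by
        intro i
        simp only [add_mul, Finset.sum_add_distrib, ite_mul, zero_mul, Finset.sum_ite_eq,
          Finset.mem_univ, if_true, hη, Finset.mul_sum, mul_assoc]
      have e2 : ∑ j, b * y j * x j.succ = b * η := by simp only [hη, Finset.mul_sum, mul_assoc]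
      have e3 : ∑ i, x i.succ * (b * y i * x 0 + (α * x i.succ + a * y i * η)) =
          (b * x 0 + a * η) * η + α * N := by
        generalize hκ : b * x 0 + a * η = κ
        rw [hN, Finset.mul_sum, hη, Finset.mul_sum, ← Finset.sum_add_distrib, ← hη, ← hκ]
        exact Finset.sum_congr rfl fun j _ => by ring
      simp only [star_trivial, dotProduct, Matrix.mulVec, Fin.sum_univ_succ, mat_zz, mat_zs, mat_sz,
        mat_ss, e1, e2, e3]
      ring
    have cs : η ^ 2 ≤ s * N := by
      rw [← hs]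
      exact Finset.sum_mul_sq_le_sq_mul_sq _ _ _
    have N0 : 0 ≤ N := Finset.sum_nonneg fun j _ => sq_nonneg _
    rw [e]
    refine (mul_pos_iff_of_pos_left hc).1 ?_
    have e4 : c * (c * x 0 ^ 2 + 2 * b * x 0 * η + α * N + a * η ^ 2) =
        (c * x 0 + b * η) ^ 2 + (c * a - b ^ 2) * η ^ 2 + c * α * N := by ring
    rw [e4]
    rcases N0.eq_or_lt with h0 | h0
    · have h1 : η = 0 := by
        rw [← h0, mul_zero] at cs
        exact pow_eq_zero_iff two_ne_zero |>.1 (le_antisymm cs (sq_nonneg _))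
      have h2 : x 0 ≠ 0 := by
        intro h2
        apply hx
        ext i
        refine Fin.cases h2 (fun i => ?_) i
        have := (Finset.sum_eq_zero_iff_of_nonneg fun j _ => sq_nonneg _).1 h0.symm i
          (Finset.mem_univ _)
        exact pow_eq_zero_iff two_ne_zero |>.1 this
      rw [h1, ← h0]
      simp only [mul_zero, add_zero, ne_eq, OfNat.ofNat_ne_zero, not_false_eq_true, zero_pow]
      positivity
    · rcases le_total 0 (c * a - b ^ 2) with h3 | h3
      · positivity
      · nlinarith [mul_pos hD h0, sq_nonneg (c * x 0 + b * η), mul_le_mul_of_nonpos_left cs h3]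

end Vale.Agent.P252
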