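import Vale.Agent.P252.Defs
import Vale.Agent.P252.Mat

/-!
The Hessian of `exp (μ log (φ(|y|²) + t²) + ℓ(|y|²))`.
-/

namespace Vale.Agent.P252

variable {m : ℕ}

/-- squared norm of the last `m` coordinates -/
def sq (x : Fin (m + 1) → ℝ) : ℝ := ∑ j : Fin m, x j.succ ^ 2

theorem sq_nonneg' (x : Fin (m + 1) → ℝ) : 0 ≤ sq x := Finset.sum_nonneg fun _ _ => sq_nonneg _

/-- the ansatz -/
noncomputable def ans (μ : ℝ) (φ l : ℝ → ℝ) (x : Fin (m + 1) → ℝ) : ℝ :=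
  Real.exp (μ * Real.log (φ (sq x) + x 0 ^ 2) + l (sq x))

theorem d_coord (x v : Fin (m + 1) → ℝ) (j : Fin (m + 1)) :
    HasDerivAt (fun τ : ℝ => (x + τ • v) j) (v j) 0 := by
  simpa using ((hasDerivAt_id (0 : ℝ)).mul_const (v j)).const_add (x j)

theorem d_sq (x v : Fin (m + 1) → ℝ) :
    HasDerivAt (fun τ : ℝ => sq (x + τ • v)) (2 * ∑ j : Fin m, x j.succ * v j.succ) 0 := by
  have := HasDerivAt.fun_sum (u := Finset.univ) fun (j : Fin m) _ => (d_coord x v j.succ).fun_pow 2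
  refine this.congr_deriv ?_
  rw [Finset.mul_sum]
  exact Finset.sum_congr rfl fun j _ => by simp; ring

theorem d_comp {g : ℝ → ℝ} {g' : ℝ} (x v : Fin (m + 1) → ℝ) (hg : HasDerivAt g g' (sq x)) :
    HasDerivAt (fun τ : ℝ => g (sq (x + τ • v)))
      (g' * (2 * ∑ j : Fin m, x j.succ * v j.succ)) 0 := by
  have h : HasDerivAt g g' (sq (x + (0 : ℝ) • v)) := by simpa using hg
  exact h.comp (0 : ℝ) (d_sq x v)

theorem sum_zero (x : Fin (m + 1) → ℝ) :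
    ∑ j : Fin m, x j.succ * (Pi.single 0 1 : Fin (m + 1) → ℝ) j.succ = 0 := by simp

theorem sum_succ (x : Fin (m + 1) → ℝ) (i : Fin m) :
    ∑ j : Fin m, x j.succ * (Pi.single i.succ 1 : Fin (m + 1) → ℝ) j.succ = x i.succ := by
  simp [Pi.single_apply]

section
variable {μ : ℝ} {φ φ1 φ2 l z z1 : ℝ → ℝ} (h0 : ∀ s, 0 ≤ s → 0 < φ s)
  (h1 : ∀ s, 0 ≤ s → HasDerivAt φ (φ1 s) s) (h2 : ∀ s, 0 ≤ s → HasDerivAt φ1 (φ2 s) s)
  (h3 : ∀ s, 0 ≤ s → HasDerivAt l (z s) s) (h4 : ∀ s, 0 ≤ s → HasDerivAt z (z1 s) s)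

include h1 in
theorem d_q (x v : Fin (m + 1) → ℝ) :
    HasDerivAt (fun τ : ℝ => φ (sq (x + τ • v)) + (x + τ • v) 0 ^ 2)
      (φ1 (sq x) * (2 * ∑ j : Fin m, x j.succ * v j.succ) + 2 * x 0 * v 0) 0 := by
  refine ((d_comp x v (h1 _ (sq_nonneg' x))).add ((d_coord x v 0).fun_pow 2)).congr_deriv ?_
  simp

include h0 h1 h3 in
theorem d_ans (x v : Fin (m + 1) → ℝ) :
    HasDerivAt (fun τ : ℝ => ans μ φ l (x + τ • v)) (ans μ φ l x *
      (μ * ((φ1 (sq x) * (2 * ∑ j : Fin m, x j.succ * v j.succ) + 2 * x 0 * v 0) /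
        (φ (sq x) + x 0 ^ 2)) + z (sq x) * (2 * ∑ j : Fin m, x j.succ * v j.succ))) 0 := by
  have hq : φ (sq x) + x 0 ^ 2 ≠ 0 := by
    have := h0 _ (sq_nonneg' x)
    positivity
  have := ((((d_q h1 x v).log (by simpa using hq)).const_mul μ).add
    (d_comp x v (h3 _ (sq_nonneg' x)))).exp
  simpa [ans] using this

include h0 h1 h3 in
theorem pd_zero : pd (ans μ φ l) (0 : Fin (m + 1)) =
    fun x => ans μ φ l x * (2 * μ * x 0 / (φ (sq x) + x 0 ^ 2)) := by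
  ext x
  rw [pd, HasLineDerivAt.lineDeriv (d_ans h0 h1 h3 x _), sum_zero]
  congr 1
  simp
  ring

include h0 h1 h3 in
theorem pd_succ (j : Fin m) : pd (ans μ φ l) j.succ = fun x => ans μ φ l x *
    (2 * x j.succ * (μ * φ1 (sq x) / (φ (sq x) + x 0 ^ 2) + z (sq x))) := by
  ext x
  rw [pd, HasLineDerivAt.lineDeriv (d_ans h0 h1 h3 x _), sum_succ]
  congr 1
  simp [(Fin.succ_ne_zero j).symm]
  ring

include h0 h1 h2 h3 h4 in
theorem hess_ans (x : Fin (m + 1) → ℝ) {f q t s lam : ℝ} (hf : ans μ φ l x = f) (hs : sq x = s)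
    (ht : x 0 = t) (hq : φ s + t ^ 2 = q) (hl : μ * φ1 s / q + z s = lam) :
    hess (ans μ φ l) x = mat (f * (2 * lam))
      (f * (4 * (lam ^ 2 + μ * φ2 s / q - μ * φ1 s ^ 2 / q ^ 2 + z1 s)))
      (f * (4 * μ * t * lam / q - 4 * μ * t * φ1 s / q ^ 2))
      (f * ((2 * μ * t / q) ^ 2 + 2 * μ / q - 4 * μ * t ^ 2 / q ^ 2)) fun j => x j.succ := by
  have hq0 : φ (sq x) + x 0 ^ 2 ≠ 0 := by
    have := h0 _ (sq_nonneg' x)
    positivity
  have A : ∀ v, HasLineDerivAt ℝ (pd (ans μ φ l) (0 : Fin (m + 1))) _ x v := fun v => by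
    rw [pd_zero h0 h1 h3]
    exact (d_ans h0 h1 h3 x v).mul
      (((d_coord x v 0).const_mul (2 * μ)).div (d_q h1 x v) (by simpa using hq0))
  have B : ∀ (j : Fin m) v, HasLineDerivAt ℝ (pd (ans μ φ l) j.succ) _ x v := fun j v => by
    rw [pd_succ h0 h1 h3]
    exact (d_ans h0 h1 h3 x v).mul (((d_coord x v j.succ).const_mul 2).mul
      ((((d_comp x v (h2 _ (sq_nonneg' x))).const_mul μ).div (d_q h1 x v)
        (by simpa using hq0)).add (d_comp x v (h4 _ (sq_nonneg' x)))))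
  rw [hs, ht, hq] at hq0
  ext i j
  rw [hess, Matrix.of_apply, pd]
  refine Fin.cases ?_ (fun i => ?_) i <;> refine Fin.cases ?_ (fun j => ?_) j
  · rw [(A _).lineDeriv, sum_zero]
    simp [hf, hs, ht, hq]
    field_simp
    ring
  · rw [(B j _).lineDeriv, sum_zero]
    simp [hf, hs, ht, hq, hl]
    field_simp
    ring
  · rw [(A _).lineDeriv, sum_succ]
    simp [hf, hs, ht, hq, ← hl]
    field_simp
    ring
  · rw [(B j _).lineDeriv, sum_succ]
    simp [hf, hs, ht, hq, ← hl, Pi.single_apply, eq_comm]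
    split_ifs <;> field_simp <;> ring

end

end Vale.Agent.P252
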