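import Mathlib

/-!
Smooth local solutions of a planar system with a regular singular point, by the implicit function
theorem in the Banach algebra of continuous functions on the unit interval.
-/

namespace Vale.Agent.P252

open Set Metric MeasureTheory
open scoped Topology unitInterval

theorem cont_integrand {a : ℝ} (ha : 0 ≤ a) (f : C(I, ℝ)) :
    Continuous fun x : I × ℝ => x.2 ^ a * f (x.1 * projIcc 0 1 zero_le_one x.2) := by
  have h1 : Continuous fun x : I × ℝ => x.2 ^ a :=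
    (Real.continuous_rpow_const ha).comp continuous_snd
  have h2 : Continuous fun x : I × ℝ => projIcc (0 : ℝ) 1 zero_le_one x.2 :=
    continuous_projIcc.comp continuous_snd
  exact h1.mul (f.continuous.comp (continuous_fst.mul h2))

/-- the averaging operator -/
noncomputable def Kop (a : ℝ) (ha : 0 ≤ a) : C(I, ℝ) →L[ℝ] C(I, ℝ) :=
  LinearMap.mkContinuous
    { toFun := fun f => ⟨fun τ => ∫ r in (0 : ℝ)..1, r ^ a * f (τ * projIcc 0 1 zero_le_one r),
        intervalIntegral.continuous_parametric_intervalIntegral_of_continuous'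
          (cont_integrand ha f) 0 1⟩
      map_add' := fun f g => by
        ext τ
        simp only [ContinuousMap.add_apply, ContinuousMap.coe_mk, mul_add]
        exact intervalIntegral.integral_add
          (((cont_integrand ha f).comp (Continuous.prodMk_right τ)).intervalIntegrable _ _)
          (((cont_integrand ha g).comp (Continuous.prodMk_right τ)).intervalIntegrable _ _)
      map_smul' := fun c f => by
        ext τ
        simp only [ContinuousMap.smul_apply, ContinuousMap.coe_mk, RingHom.id_apply, smul_eq_mul]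
        rw [← intervalIntegral.integral_const_mul]
        congr 1
        ext r
        ring } 1 (fun f => by
      rw [one_mul, ContinuousMap.norm_le _ (norm_nonneg f)]
      intro τ
      have := intervalIntegral.norm_integral_le_of_norm_le_const (a := 0) (b := 1) (C := ‖f‖)
        (f := fun r => r ^ a * f (τ * projIcc 0 1 zero_le_one r)) (fun r hr => by
          rw [uIoc_of_le zero_le_one] at hr
          rw [norm_mul, Real.norm_of_nonneg (Real.rpow_nonneg hr.1.le a)]
          exact (mul_le_of_le_one_left (norm_nonneg _) (Real.rpow_le_one hr.1.le hr.2 ha)).trans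
            (f.norm_coe_le_norm _))
      simpa using this)

theorem Kop_apply (a : ℝ) (ha : 0 ≤ a) (f : C(I, ℝ)) (τ : I) :
    Kop a ha f τ = ∫ r in (0 : ℝ)..1, r ^ a * f (τ * projIcc 0 1 zero_le_one r) := rfl

/-- rescaling of the argument -/
def resc (l : I) (f : C(I, ℝ)) : C(I, ℝ) := f.comp ⟨fun τ => l * τ, by fun_prop⟩

theorem dist_resc (l : I) (f : C(I, ℝ)) (c : ℝ) :
    dist (resc l f) (ContinuousMap.const I c) ≤ dist f (ContinuousMap.const I c) := by
  rw [ContinuousMap.dist_le dist_nonneg]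
  intro τ
  exact ContinuousMap.dist_apply_le_dist (f := f) (g := ContinuousMap.const I c) (l * τ)

theorem exists_local {a b : ℝ} (ha : 0 ≤ a) (hb : 0 ≤ b) (g h : ℝ → ℝ → ℝ → ℝ)
    (G H : ℝ × C(I, ℝ) × C(I, ℝ) → C(I, ℝ)) (cG : ContDiff ℝ (⊤ : ℕ∞) G)
    (cH : ContDiff ℝ (⊤ : ℕ∞) H)
    (hG : ∀ c P Y (τ : I), G (c, P, Y) τ = g (c * τ) (P τ) (Y τ))
    (hH : ∀ c P Y (τ : I), H (c, P, Y) τ = h (c * τ) (P τ) (Y τ)) (x0 y0 : ℝ) :
    ∃ q e : ℝ → ℝ, ContDiffAt ℝ (⊤ : ℕ∞) q 0 ∧ ContDiffAt ℝ (⊤ : ℕ∞) e 0 ∧ ∀ᶠ s in 𝓝 (0 : ℝ),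
      q s = x0 + s * ∫ r in (0 : ℝ)..1, r ^ a * g (s * r) (q (s * r)) (e (s * r)) ∧
      e s = y0 + s * ∫ r in (0 : ℝ)..1, r ^ b * h (s * r) (q (s * r)) (e (s * r)) := by
  let ι : C(I, ℝ) := ⟨Subtype.val, continuous_subtype_val⟩
  let Ψ : ℝ × C(I, ℝ) × C(I, ℝ) → C(I, ℝ) × C(I, ℝ) :=
    fun v => (ι * Kop a ha (G v), ι * Kop b hb (H v))
  have cΨ : ContDiff ℝ (⊤ : ℕ∞) Ψ :=
    (contDiff_const.mul ((Kop a ha).contDiff.comp cG)).prodMk
      (contDiff_const.mul ((Kop b hb).contDiff.comp cH))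
  let f : ℝ × C(I, ℝ) × C(I, ℝ) → C(I, ℝ) × C(I, ℝ) := fun v => v.2 - v.1 • Ψ v
  let X0 : C(I, ℝ) × C(I, ℝ) := (ContinuousMap.const I x0, ContinuousMap.const I y0)
  have cf : ContDiffAt ℝ (⊤ : ℕ∞) f (0, X0) :=
    (contDiff_snd.sub (contDiff_fst.smul cΨ)).contDiffAt
  have hinv : (fderiv ℝ f (0, X0) ∘L .inr ℝ ℝ (C(I, ℝ) × C(I, ℝ))).IsInvertible := by
    have h1 : HasFDerivAt (f ∘ fun X => ((0 : ℝ), X))
        (fderiv ℝ f (0, X0) ∘L .inr ℝ ℝ (C(I, ℝ) × C(I, ℝ))) X0 :=
      HasFDerivAt.comp X0 (cf.differentiableAt (by simp)).hasFDerivAt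
        (hasFDerivAt_prodMk_right (0 : ℝ) X0)
    have h2 : (f ∘ fun X => ((0 : ℝ), X)) = id := by
      ext1 X
      simp [f]
    rw [h2] at h1
    rw [h1.unique (hasFDerivAt_id X0)]
    exact ⟨ContinuousLinearEquiv.refl ℝ _, rfl⟩
  have pn : ((⊤ : ℕ∞) : WithTop ℕ∞) ≠ 0 := by simp
  have f0 : f (0, X0) = X0 := by simp [f]
  have c1 := cf.contDiffAt_implicitFunction pn hinv
  have c2 := cf.implicitFunction_apply_self pn hinv
  have c3 := cf.eventually_apply_implicitFunction pn hinv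
  have c4 := cf.eventually_apply_eq_iff_implicitFunction pn hinv
  generalize cf.implicitFunction pn hinv = ψ at c1 c2 c3 c4
  rw [f0] at c3 c4
  simp only at c1 c2 c3
  obtain ⟨ε, hε, c4⟩ := Metric.eventually_nhds_iff.1 c4
  have c5 : ∀ᶠ s in 𝓝 (0 : ℝ), dist (ψ s) X0 < ε := by
    have := c1.continuousAt.tendsto
    rw [c2] at this
    exact this.eventually (ball_mem_nhds X0 hε)
  let ev : C(I, ℝ) →L[ℝ] ℝ := ContinuousMap.evalCLM ℝ (1 : I)
  refine ⟨fun s => (ψ s).1 1, fun s => (ψ s).2 1, ev.contDiff.contDiffAt.comp 0 c1.fst,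
    ev.contDiff.contDiffAt.comp 0 c1.snd, ?_⟩
  filter_upwards [c3, c5, ball_mem_nhds (0 : ℝ) hε] with s h3 h5 h6
  have e1 : ∀ τ : I, (ψ s).1 τ = x0 + s * (τ * Kop a ha (G (s, ψ s)) τ) := fun τ => by
    have := congrArg (fun X : C(I, ℝ) × C(I, ℝ) => X.1 τ) h3
    simp only [f, Ψ, X0, Prod.fst_sub, Prod.smul_fst, ContinuousMap.sub_apply,
      ContinuousMap.smul_apply, ContinuousMap.const_apply, smul_eq_mul, ContinuousMap.mul_apply, ι,
      ContinuousMap.coe_mk] at this
    linarith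
  have e2 : ∀ τ : I, (ψ s).2 τ = y0 + s * (τ * Kop b hb (H (s, ψ s)) τ) := fun τ => by
    have := congrArg (fun X : C(I, ℝ) × C(I, ℝ) => X.2 τ) h3
    simp only [f, Ψ, X0, Prod.snd_sub, Prod.smul_snd, ContinuousMap.sub_apply,
      ContinuousMap.smul_apply, ContinuousMap.const_apply, smul_eq_mul, ContinuousMap.mul_apply, ι,
      ContinuousMap.coe_mk] at this
    linarith
  have key : ∀ l : I, ψ (s * l) = (resc l (ψ s).1, resc l (ψ s).2) := by
    intro l
    refine (c4 (y := (s * l, resc l (ψ s).1, resc l (ψ s).2)) ?_).1 ?_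
    · rw [Prod.dist_eq, Prod.dist_eq] at *
      rw [max_lt_iff] at h5
      refine max_lt ?_ (max_lt ((dist_resc _ _ _).trans_lt h5.1) ((dist_resc _ _ _).trans_lt h5.2))
      rw [mem_ball, dist_zero_right] at h6
      rw [dist_zero_right, norm_mul]
      refine (mul_le_of_le_one_right (norm_nonneg _) ?_).trans_lt h6
      rw [Real.norm_of_nonneg l.2.1]
      exact l.2.2
    · have k1 : ∀ τ : I, Kop a ha (G (s * l, resc l (ψ s).1, resc l (ψ s).2)) τ =
          Kop a ha (G (s, ψ s)) (l * τ) := fun τ => by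
        rw [Kop_apply, Kop_apply]
        congr 1
        ext r
        rw [hG, hG]
        simp only [resc, ContinuousMap.comp_apply, ContinuousMap.coe_mk, mul_assoc,
          Set.Icc.coe_mul]
      have k2 : ∀ τ : I, Kop b hb (H (s * l, resc l (ψ s).1, resc l (ψ s).2)) τ =
          Kop b hb (H (s, ψ s)) (l * τ) := fun τ => by
        rw [Kop_apply, Kop_apply]
        congr 1
        ext r
        rw [hH, hH]
        simp only [resc, ContinuousMap.comp_apply, ContinuousMap.coe_mk, mul_assoc,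
          Set.Icc.coe_mul]
      refine Prod.ext (ContinuousMap.ext fun τ => ?_) (ContinuousMap.ext fun τ => ?_)
      · simp only [f, Ψ, X0, Prod.fst_sub, Prod.smul_fst, ContinuousMap.sub_apply,
          ContinuousMap.smul_apply, ContinuousMap.const_apply, smul_eq_mul,
          ContinuousMap.mul_apply, ι, ContinuousMap.coe_mk, k1]
        simp only [resc, ContinuousMap.comp_apply, ContinuousMap.coe_mk, e1, Set.Icc.coe_mul]
        ring
      · simp only [f, Ψ, X0, Prod.snd_sub, Prod.smul_snd, ContinuousMap.sub_apply,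
          ContinuousMap.smul_apply, ContinuousMap.const_apply, smul_eq_mul,
          ContinuousMap.mul_apply, ι, ContinuousMap.coe_mk, k2]
        simp only [resc, ContinuousMap.comp_apply, ContinuousMap.coe_mk, e2, Set.Icc.coe_mul]
        ring
  have k3 : ∀ r ∈ uIcc (0 : ℝ) 1, ((1 * projIcc 0 1 zero_le_one r : I) : ℝ) = r ∧
      (ψ s).1 (1 * projIcc 0 1 zero_le_one r) = (ψ (s * r)).1 1 ∧
      (ψ s).2 (1 * projIcc 0 1 zero_le_one r) = (ψ (s * r)).2 1 := by
    intro r hr
    rw [uIcc_of_le zero_le_one] at hr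
    have := key ⟨r, hr⟩
    simp only at this
    rw [projIcc_of_mem _ hr, this]
    simp [resc]
  constructor
  · rw [e1, Kop_apply, Set.Icc.coe_one, one_mul]
    congr 2
    refine intervalIntegral.integral_congr fun r hr => ?_
    rw [hG, (k3 r hr).1, (k3 r hr).2.1, (k3 r hr).2.2]
  · rw [e2, Kop_apply, Set.Icc.coe_one, one_mul]
    congr 2
    refine intervalIntegral.integral_congr fun r hr => ?_
    rw [hH, (k3 r hr).1, (k3 r hr).2.1, (k3 r hr).2.2]

/-- from the integral form to the differential form -/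
theorem hasDerivAt_of_integral {a δ x0 : ℝ} (ha : 0 ≤ a) {y F : ℝ → ℝ}
    (hF : ContinuousOn F (Ioo (-δ) δ))
    (hy : ∀ s ∈ Ioo 0 δ, y s = x0 + s * ∫ r in (0 : ℝ)..1, r ^ a * F (s * r))
    {s : ℝ} (hs : s ∈ Ioo 0 δ) : HasDerivAt y (F s - a * (y s - x0) / s) s := by
  have hc : ContinuousOn (fun r => r ^ a * F r) (Ioo (-δ) δ) :=
    (Real.continuous_rpow_const ha).continuousOn.mul hF
  have h1 : ∀ s ∈ Ioo 0 δ, y s = x0 + s ^ (-a) * ∫ r in (0 : ℝ)..s, r ^ a * F r := by
    intro s hs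
    have := intervalIntegral.smul_integral_comp_mul_left (a := 0) (b := 1)
      (f := fun r : ℝ => r ^ a * F r) s
    rw [mul_zero, mul_one] at this
    rw [hy s hs, ← this, smul_eq_mul, mul_left_comm, ← intervalIntegral.integral_const_mul (s ^ (-a))]
    congr 2
    refine intervalIntegral.integral_congr fun r hr => ?_
    rw [uIcc_of_le zero_le_one] at hr
    rw [Real.mul_rpow hs.1.le hr.1, Real.rpow_neg hs.1.le]
    have := (Real.rpow_pos_of_pos hs.1 a).ne'
    field_simp
  have hs' : s ∈ Ioo (-δ) δ := ⟨by linarith [hs.1, hs.2], hs.2⟩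
  have h2 : HasDerivAt (fun s => ∫ r in (0 : ℝ)..s, r ^ a * F r) (s ^ a * F s) s := by
    refine intervalIntegral.integral_hasDerivAt_right ?_
      (hc.stronglyMeasurableAtFilter isOpen_Ioo s hs') (hc.continuousAt (Ioo_mem_nhds hs'.1 hs'.2))
    refine (hc.mono ?_).intervalIntegrable
    rw [uIcc_of_le hs.1.le]
    exact fun r hr => ⟨by linarith [hr.1, hs.1, hs.2], hr.2.trans_lt hs.2⟩
  have h3 := ((Real.hasDerivAt_rpow_const (p := -a) (Or.inl hs.1.ne')).mul h2).const_add x0
  have h4 : y =ᶠ[𝓝 s] fun s => x0 + s ^ (-a) * ∫ r in (0 : ℝ)..s, r ^ a * F r := by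
    filter_upwards [Ioo_mem_nhds hs.1 hs.2] with t ht using h1 t ht
  refine (h3.congr_of_eventuallyEq h4).congr_deriv ?_
  rw [h1 s hs, Real.rpow_sub_one hs.1.ne', Real.rpow_neg hs.1.le]
  have := (Real.rpow_pos_of_pos hs.1 a).ne'
  have := hs.1.ne'
  field_simp
  ring

end Vale.Agent.P252
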