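import Vale.Agent.P252.Glob
import Vale.Agent.P252.Loc

/-!
The global smooth profile.
-/

namespace Vale.Agent.P252

open Set Filter
open scoped Topology unitInterval

/-- derivative of `q` -/
noncomputable def dq (k s q e : ℝ) : ℝ := q * (e * (1 - s * q) ^ 2 - (3 + k) * q + s * q ^ 2) / 2

/-- twice the logarithmic derivative of `E` -/
noncomputable def rho (k s q e : ℝ) : ℝ :=
  (4 * k + 7 / 2) * q - 2 * k * e +
    s * (-(2 * k + 4) * q ^ 2 + (4 * k + 4) * e * q - (2 * k + 4) * s * e * q ^ 2)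

theorem hasDerivAt_zero {y F : ℝ → ℝ} (hy : ContDiffAt ℝ (⊤ : ℕ∞) y 0) (hF : ContinuousAt F 0)
    (h : ∀ᶠ s in 𝓝[>] (0 : ℝ), HasDerivAt y (F s) s) : HasDerivAt y (F 0) 0 := by
  have h1 : ContinuousAt (deriv y) 0 := by
    have := (hy.continuousAt_fderiv (by simp)).clm_apply (continuousAt_const (y := (1 : ℝ)))
    exact this
  have h2 : deriv y 0 = F 0 :=
    tendsto_nhds_unique_of_eventuallyEq (l := 𝓝[>] (0 : ℝ))
      (h1.tendsto.mono_left nhdsWithin_le_nhds) (hF.tendsto.mono_left nhdsWithin_le_nhds)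
      (h.mono fun s hs => hs.deriv)
  rw [← h2]
  exact (hy.differentiableAt (by simp)).hasDerivAt

theorem exists_near {k : ℝ} (hk : 9 / 2 ≤ k) :
    ∃ (q e : ℝ → ℝ) (δ : ℝ), 0 < δ ∧ ContDiffAt ℝ (⊤ : ℕ∞) q 0 ∧ ContDiffAt ℝ (⊤ : ℕ∞) e 0 ∧
      ∀ s ∈ Ico 0 δ, 0 < q s ∧ s * q s ≤ 1 / 2 ∧ 0 < 1 + s * e s ∧ 1 + s * e s ≤ 2 * k - 2 ∧
        HasDerivAt q (dq k s (q s) (e s)) s ∧
        HasDerivAt (fun s => 1 + s * e s) ((1 + s * e s) * rho k s (q s) (e s) / 2) s := by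
  set c := (2 * k + 7 / 4) / (k + 1) with hc
  have hc' : c * (k + 1) = 2 * k + 7 / 4 := div_mul_cancel₀ _ (by linarith)
  clear_value c
  let ι : C(I, ℝ) := ⟨Subtype.val, continuous_subtype_val⟩
  let g : ℝ → ℝ → ℝ → ℝ := fun s q w => dq k s q (w + c * q)
  let h : ℝ → ℝ → ℝ → ℝ := fun s q w => (w + c * q) * rho k s q (w + c * q) / 2 - (k + 2) * q ^ 2 +
    (2 * k + 2) * (w + c * q) * q - (k + 2) * s * (w + c * q) * q ^ 2 - c * dq k s q (w + c * q)
  let DQ : C(I, ℝ) → C(I, ℝ) → C(I, ℝ) → C(I, ℝ) := fun s q e =>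
    (1 / 2 : ℝ) • (q * (e * (1 - s * q) ^ 2 - (3 + k) • q + s * q ^ 2))
  let RH : C(I, ℝ) → C(I, ℝ) → C(I, ℝ) → C(I, ℝ) := fun s q e =>
    (4 * k + 7 / 2) • q - (2 * k) • e +
      s * (-(2 * k + 4) • q ^ 2 + (4 * k + 4) • e * q - (2 * k + 4) • s * e * q ^ 2)
  obtain ⟨q, w, cq, cw, hs⟩ := exists_local (a := 0) (b := k + 1) le_rfl (by linarith) g h
    (fun v => DQ (v.1 • ι) v.2.1 (v.2.2 + c • v.2.1))
    (fun v => (1 / 2 : ℝ) • ((v.2.2 + c • v.2.1) * RH (v.1 • ι) v.2.1 (v.2.2 + c • v.2.1)) -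
      (k + 2) • v.2.1 ^ 2 + (2 * k + 2) • (v.2.2 + c • v.2.1) * v.2.1 -
      (k + 2) • (v.1 • ι) * (v.2.2 + c • v.2.1) * v.2.1 ^ 2 -
      c • DQ (v.1 • ι) v.2.1 (v.2.2 + c • v.2.1))
    (by unfold DQ; fun_prop) (by unfold DQ RH; fun_prop)
    (fun s P Y τ => by simp [DQ, g, dq, ι]; ring)
    (fun s P Y τ => by simp [DQ, RH, h, dq, rho, ι]; ring) 1 0
  have q0 : q 0 = 1 := by simpa using hs.self_of_nhds.1
  have ce : ContDiffAt ℝ (⊤ : ℕ∞) (fun s => w s + c * q s) 0 := cw.add (contDiffAt_const.mul cq)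
  have cE : ContDiffAt ℝ (⊤ : ℕ∞) (fun s => 1 + s * (w s + c * q s)) 0 :=
    contDiffAt_const.add (contDiffAt_id.mul ce)
  have t1 : ∀ᶠ s in 𝓝 (0 : ℝ), ContinuousAt q s :=
    ((cq.of_le (m := 1) (by simp)).eventually (by simp)).mono fun s hs => hs.continuousAt
  have t2 : ∀ᶠ s in 𝓝 (0 : ℝ), ContinuousAt w s :=
    ((cw.of_le (m := 1) (by simp)).eventually (by simp)).mono fun s hs => hs.continuousAt
  have t3 : ∀ᶠ s in 𝓝 (0 : ℝ), 0 < q s := cq.continuousAt.eventually (lt_mem_nhds (by simp [q0]))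
  have t4 : ∀ᶠ s in 𝓝 (0 : ℝ), s * q s < 1 / 2 :=
    (continuousAt_id.mul cq.continuousAt).eventually (gt_mem_nhds (by simp))
  have t5 : ∀ᶠ s in 𝓝 (0 : ℝ), 0 < 1 + s * (w s + c * q s) :=
    cE.continuousAt.eventually (lt_mem_nhds (by simp))
  have t6 : ∀ᶠ s in 𝓝 (0 : ℝ), 1 + s * (w s + c * q s) < 2 * k - 2 :=
    cE.continuousAt.eventually (gt_mem_nhds (by simp; linarith))
  obtain ⟨δ, hδ, H⟩ := Metric.eventually_nhds_iff.1
    (hs.and (t1.and (t2.and (t3.and (t4.and (t5.and t6))))))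
  have H' : ∀ s ∈ Ioo (-δ) δ, _ := fun s hs =>
    H (y := s) (by rw [dist_zero_right, Real.norm_eq_abs, abs_lt]; exact hs)
  have sub : ∀ s ∈ Ioo 0 δ, s ∈ Ioo (-δ) δ := fun s hs => ⟨by linarith [hs.1], hs.2⟩
  have cg : ∀ s ∈ Ioo (-δ) δ, ContinuousAt (fun s => g s (q s) (w s)) s := fun s hs => by
    have := (H' s hs).2.1
    have := (H' s hs).2.2.1
    unfold g dq
    fun_prop
  have ch : ∀ s ∈ Ioo (-δ) δ, ContinuousAt (fun s => h s (q s) (w s)) s := fun s hs => by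
    have := (H' s hs).2.1
    have := (H' s hs).2.2.1
    unfold h dq rho
    fun_prop
  have d1 : ∀ s ∈ Ioo 0 δ, HasDerivAt q (dq k s (q s) (w s + c * q s)) s := fun s hs => by
    simpa using hasDerivAt_of_integral (a := 0) (F := fun s => g s (q s) (w s)) le_rfl
      (fun s hs => (cg s hs).continuousWithinAt) (fun s hs => (H' s (sub s hs)).1.1) hs
  have d2 : ∀ s ∈ Ioo 0 δ, HasDerivAt (fun s => 1 + s * (w s + c * q s))
      ((1 + s * (w s + c * q s)) * rho k s (q s) (w s + c * q s) / 2) s := fun s hs => by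
    have := hasDerivAt_of_integral (a := k + 1) (F := fun s => h s (q s) (w s)) (by linarith)
      (fun s hs => (ch s hs).continuousWithinAt) (fun s hs => (H' s (sub s hs)).1.2) hs
    refine (((hasDerivAt_id s).mul (this.add ((d1 s hs).const_mul c))).const_add 1).congr_deriv ?_
    have := hs.1.ne'
    simp only [h, rho, id, Pi.add_apply]
    field_simp
    linear_combination (4 * q s) * hc'
  refine ⟨q, fun s => w s + c * q s, δ, hδ, cq, ce, fun s hs => ?_⟩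
  have := H' s ⟨by linarith [hs.1], hs.2⟩
  refine ⟨this.2.2.2.1, this.2.2.2.2.1.le, this.2.2.2.2.2.1, this.2.2.2.2.2.2.le, ?_⟩
  rcases hs.1.eq_or_lt with rfl | h0
  · have ev : ∀ᶠ s in 𝓝[>] (0 : ℝ), s ∈ Ioo 0 δ := Ioo_mem_nhdsGT hδ
    refine ⟨hasDerivAt_zero (F := fun s => dq k s (q s) (w s + c * q s)) cq (cg 0 ⟨by linarith, hδ⟩)
      (ev.mono d1), hasDerivAt_zero (F := fun s => (1 + s * (w s + c * q s)) *
        rho k s (q s) (w s + c * q s) / 2) cE ?_ (ev.mono d2)⟩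
    have := cq.continuousAt
    have := cw.continuousAt
    unfold rho
    fun_prop
  · exact ⟨d1 s ⟨h0, hs.2⟩, d2 s ⟨h0, hs.2⟩⟩

theorem hasDerivAt_glue {E : Type*} [NormedAddCommGroup E] [NormedSpace ℝ E] {f g : ℝ → E}
    {V : ℝ × E → E} {a : ℝ} (hf : ∀ s ∈ Ioc 0 a, HasDerivAt f (V (s, f s)) s)
    (hg : ∀ s, a ≤ s → HasDerivAt g (V (s, g s)) s) (h : f a = g a) {s : ℝ} (hs : 0 < s) :
    HasDerivAt (fun s => if s ≤ a then f s else g s) (V (s, if s ≤ a then f s else g s)) s := by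
  rcases lt_trichotomy s a with h1 | rfl | h1
  · rw [if_pos h1.le]
    refine (hf s ⟨hs, h1.le⟩).congr_of_eventuallyEq ?_
    filter_upwards [gt_mem_nhds h1] with t ht using if_pos ht.le
  · rw [if_pos le_rfl, ← hasDerivWithinAt_univ, ← Iic_union_Ici (a := s)]
    refine HasDerivWithinAt.union ?_ ?_
    · exact (hf s ⟨hs, le_rfl⟩).hasDerivWithinAt.congr (fun t ht => if_pos ht) (if_pos le_rfl)
    · rw [h]
      refine (hg s le_rfl).hasDerivWithinAt.congr (fun t ht => ?_) ((if_pos le_rfl).trans h)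
      rcases (mem_Ici.1 ht).eq_or_lt with rfl | h2
      · exact (if_pos le_rfl).trans h
      · exact if_neg h2.not_ge
  · rw [if_neg h1.not_ge]
    refine (hg s h1.le).congr_of_eventuallyEq ?_
    filter_upwards [lt_mem_nhds h1] with t ht using if_neg ht.not_ge

theorem exists_profile {k : ℝ} (hk : 9 / 2 ≤ k) :
    ∃ q E e : ℝ → ℝ, ∀ s, 0 ≤ s → ContDiffAt ℝ (⊤ : ℕ∞) q s ∧
      0 < q s ∧ s * q s ≤ 1 / 2 ∧ 0 < E s ∧ E s = 1 + s * e s ∧
      HasDerivAt q (dq k s (q s) (e s)) s ∧ HasDerivAt E (E s * rho k s (q s) (e s) / 2) s := by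
  obtain ⟨q, e, δ, hδ, cq, ce, H⟩ := exists_near hk
  set a := δ / 2 with ha
  have a0 : 0 < a := by positivity
  have sub : ∀ s, 0 ≤ s → s ≤ a → s ∈ Ico 0 δ := fun s h1 h2 => ⟨h1, by linarith⟩
  have Ha := H a (sub a a0.le le_rfl)
  obtain ⟨Q, E, Q0, E0, HQ⟩ := exists_planar hk (mul_pos a0 Ha.1) Ha.2.1 Ha.2.2.1 Ha.2.2.2.1
  let V : ℝ × ℝ × ℝ → ℝ × ℝ := fun v => (dq k v.1 v.2.1 ((v.2.2 - 1) / v.1),
    v.2.2 * rho k v.1 v.2.1 ((v.2.2 - 1) / v.1) / 2)
  let T : ℝ → ℝ := fun s => (Real.log s - Real.log a) / 2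
  have T0 : ∀ s, a ≤ s → 0 ≤ T s := fun s hs => by
    have := Real.log_le_log a0 hs
    simp only [T]
    linarith
  have dT : ∀ s, 0 < s → HasDerivAt T (s⁻¹ / 2) s := fun s hs =>
    ((Real.hasDerivAt_log hs.ne').sub_const _).div_const 2
  let f : ℝ → ℝ × ℝ := fun s => (q s, 1 + s * e s)
  let g : ℝ → ℝ × ℝ := fun s => (Q (T s) / s, E (T s))
  have hf : ∀ s ∈ Ioc 0 a, HasDerivAt f (V (s, f s)) s := fun s hs => by
    have h := H s (sub s hs.1.le hs.2)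
    have e1 : (1 + s * e s - 1) / s = e s := by
      have := hs.1.ne'
      field_simp
      ring
    simp only [V, f, e1]
    exact h.2.2.2.2.1.prodMk h.2.2.2.2.2
  have hg : ∀ s, a ≤ s → HasDerivAt g (V (s, g s)) s := fun s hs => by
    have s0 : 0 < s := a0.trans_le hs
    have h := HQ _ (T0 s hs)
    have := s0.ne'
    refine HasDerivAt.prodMk (((h.2.2.2.1.comp s (dT s s0)).div (hasDerivAt_id s)
      s0.ne').congr_deriv ?_) ((h.2.2.2.2.comp s (dT s s0)).congr_deriv ?_)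
    · simp only [g, dq, F1, id, Function.comp]
      field_simp
      ring
    · simp only [g, rho, F2]
      field_simp
      ring
  have hfg : f a = g a := by
    have := a0.ne'
    simp only [f, g, T, sub_self, zero_div, Q0, E0]
    congr 1
    field_simp
  let X : ℝ → ℝ × ℝ := fun s => if s ≤ a then f s else g s
  have dX : ∀ s, 0 < s → HasDerivAt X (V (s, X s)) s := fun s hs => hasDerivAt_glue hf hg hfg hs
  have cX : ContDiffOn ℝ (⊤ : ℕ∞) X (Ioi 0) := by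
    refine contDiffOn_of_ode isOpen_Ioi (fun s hs => ?_) dX
    have : ((s, X s) : ℝ × ℝ × ℝ).1 ≠ 0 := (mem_Ioi.1 hs).ne'
    unfold V dq rho
    fun_prop (disch := assumption)
  have X0 : X =ᶠ[𝓝 0] f := by
    filter_upwards [gt_mem_nhds a0] with t ht using if_pos ht.le
  refine ⟨fun s => (X s).1, fun s => (X s).2, fun s => if s = 0 then e 0 else ((X s).2 - 1) / s,
    fun s hs => ?_⟩
  rcases hs.eq_or_lt with rfl | h0
  · have h := H 0 ⟨le_rfl, hδ⟩
    have e1 : (fun s => (X s).1) =ᶠ[𝓝 0] q := X0.mono fun t ht => congrArg Prod.fst ht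
    have e2 : (fun s => (X s).2) =ᶠ[𝓝 0] fun s => 1 + s * e s :=
      X0.mono fun t ht => congrArg Prod.snd ht
    simp only [if_true, e1.eq_of_nhds, e2.eq_of_nhds]
    exact ⟨cq.congr_of_eventuallyEq e1, h.1, h.2.1, h.2.2.1, trivial,
      h.2.2.2.2.1.congr_of_eventuallyEq e1, h.2.2.2.2.2.congr_of_eventuallyEq e2⟩
  · have h0' := h0.ne'
    simp only [if_neg h0']
    have pos : 0 < (X s).1 ∧ s * (X s).1 ≤ 1 / 2 ∧ 0 < (X s).2 := by
      by_cases h : s ≤ a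
      · have h1 := H s (sub s hs h)
        simp only [X, if_pos h, f]
        exact ⟨h1.1, h1.2.1, h1.2.2.1⟩
      · have h1 := HQ _ (T0 s (not_le.1 h).le)
        simp only [X, if_neg h, g]
        refine ⟨div_pos h1.1 h0, ?_, h1.2.2.1⟩
        rw [mul_div_cancel₀ _ h0']
        exact h1.2.1
    refine ⟨(cX.contDiffAt (Ioi_mem_nhds h0)).fst, pos.1, pos.2.1, pos.2.2, ?_,
      ((ContinuousLinearMap.fst ℝ ℝ ℝ).hasFDerivAt.comp_hasDerivAt s (dX s h0) :),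
      ((ContinuousLinearMap.snd ℝ ℝ ℝ).hasFDerivAt.comp_hasDerivAt s (dX s h0) :)⟩
    field_simp
    ring

end Vale.Agent.P252
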