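import Vale.Agent.P252.Hess
import Vale.Agent.P252.Ode

/-!
A smooth entire non-quadratic solution of the affine maximal equation in dimension `m + 1 ≥ 10`.
-/

namespace Vale.Agent.P252

open Set Filter
open scoped Topology

theorem exists_primitive {p : ℝ → ℝ} (hp : ∀ s, 0 ≤ s → ContDiffAt ℝ (⊤ : ℕ∞) p s) :
    ∃ P : ℝ → ℝ, P 0 = 0 ∧ ∀ s, 0 ≤ s → HasDerivAt P (p s) s ∧ ContDiffAt ℝ (⊤ : ℕ∞) P s := by
  have t1 : ∀ᶠ s in 𝓝 (0 : ℝ), ContinuousAt p s :=
    (((hp 0 le_rfl).of_le (m := 1) (by simp)).eventually (by simp)).mono fun s hs => hs.continuousAt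
  obtain ⟨δ, hδ, H⟩ := Metric.eventually_nhds_iff.1 t1
  have hc : ∀ s ∈ Ioi (-δ), ContinuousAt p s := fun s hs => by
    rcases le_or_gt 0 s with h | h
    · exact (hp s h).continuousAt
    · exact H (by rw [dist_zero_right, Real.norm_eq_abs, abs_lt]; exact ⟨hs, by linarith⟩)
  have hd : ∀ s ∈ Ioi (-δ), HasDerivAt (fun s => ∫ r in (0 : ℝ)..s, p r) (p s) s := fun s hs => by
    refine intervalIntegral.integral_hasDerivAt_right (ContinuousOn.intervalIntegrable ?_)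
      (ContinuousAt.stronglyMeasurableAtFilter isOpen_Ioi hc s hs) (hc s hs)
    refine fun r hr => (hc r ?_).continuousWithinAt
    exact lt_of_lt_of_le (lt_min (by linarith) hs) hr.1
  refine ⟨fun s => ∫ r in (0 : ℝ)..s, p r, by simp, fun s hs => ⟨hd s (by simp; linarith), ?_⟩⟩
  rw [contDiffAt_infty]
  intro n
  refine ContDiffAt.of_le (n := (n + 1 : ℕ)) ?_ (by exact_mod_cast n.le_succ)
  push_cast
  rw [contDiffAt_succ_iff_hasFDerivAt]
  refine ⟨fun s => ContinuousLinearMap.toSpanSingleton ℝ (p s),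
    ⟨Ioi (-δ), Ioi_mem_nhds (by linarith), fun t ht => (hd t ht).hasFDerivAt⟩, ?_⟩
  have : ContDiffAt ℝ n p s := (hp s hs).of_le (by exact_mod_cast le_top)
  exact (contDiffAt_const (c := (1 : ℝ →L[ℝ] ℝ))).smulRight this

/-- the reduced system for `φ = exp P`, `P' = p` -/
theorem exists_reduced {m : ℕ} (hm : 9 ≤ m) : ∃ p p1 C C1 z z1 : ℝ → ℝ, ∀ s, 0 ≤ s →
    ContDiffAt ℝ (⊤ : ℕ∞) p s ∧ 0 < p s ∧ 0 < C s ∧ HasDerivAt p (p1 s) s ∧
    HasDerivAt C (C1 s) s ∧ HasDerivAt z (z1 s) s ∧ p s + 2 * s * p1 s + s * p s ^ 2 = p s * C s ∧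
    z s = -((m + 2) / (m + 3)) * (m * (p1 s / p s) + C1 s / C s + (m + 1) * p s) ∧
    2 * (m - 1) * z s * C s + 2 * z s + 4 * s * (z1 s + z s ^ 2) + 4 * (m + 2) * s * p s * z s +
      (m + 2) * (m + 1) * (p s + 2 * s * (p1 s + p s ^ 2)) = 0 := by
  obtain ⟨k, hk⟩ : ∃ k : ℝ, (m : ℝ) = 2 * k := ⟨m / 2, by ring⟩
  have hk' : 9 / 2 ≤ k := by
    have : (9 : ℝ) ≤ m := by exact_mod_cast hm
    linarith
  obtain ⟨q, E, e, H⟩ := exists_profile hk'
  let p : ℝ → ℝ := fun s => k * q s / (1 - s * q s)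
  let p1 : ℝ → ℝ := fun s => k * (dq k s (q s) (e s) + q s ^ 2) / (1 - s * q s) ^ 2
  let C : ℝ → ℝ := fun s => E s * (1 - s * q s)
  let C1 : ℝ → ℝ := fun s => E s * rho k s (q s) (e s) / 2 * (1 - s * q s) -
    E s * (q s + s * dq k s (q s) (e s))
  refine ⟨p, p1, C, C1, fun s => (k + 1) * (q s / 2 - p s - q s * C s),
    fun s => (k + 1) * (dq k s (q s) (e s) / 2 - p1 s - (dq k s (q s) (e s) * C s + q s * C1 s)),
    fun s hs => ?_⟩
  obtain ⟨cq, q0, q1, E0, hE, d1, d2⟩ := H s hs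
  have hD : 0 < 1 - s * q s := by linarith
  have hD' := hD.ne'
  have hD2 : 1 - q s * s ≠ 0 := by rwa [mul_comm]
  have d3 : HasDerivAt (fun s => 1 - s * q s) (-(q s + s * dq k s (q s) (e s))) s := by
    simpa using ((hasDerivAt_id s).mul d1).const_sub 1
  have dp : HasDerivAt p (p1 s) s := by
    refine ((d1.const_mul k).div d3 hD').congr_deriv ?_
    simp only [p1]
    congr 1
    ring
  have dC : HasDerivAt C (C1 s) s := (d2.mul d3).congr_deriv (by simp only [C1]; ring)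
  have k0 : 0 < k := by linarith
  refine ⟨(contDiffAt_const.mul cq).div (contDiffAt_const.sub (contDiffAt_id.mul cq)) hD',
    div_pos (mul_pos k0 q0) hD, mul_pos E0 hD, dp, dC,
    (((d1.div_const 2).sub dp).sub (d1.mul dC)).const_mul _, ?_, ?_, ?_⟩
  · simp only [p, p1, C, hE, dq]
    field_simp
    ring
  · have := E0.ne'
    have := q0.ne'
    simp only [p, p1, C, C1, hk]
    field_simp
    simp only [hE, dq, rho]
    ring
  · simp only [p, p1, C, C1, hk]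
    field_simp
    simp only [hE, dq, rho]
    ring

theorem exists_solution {m : ℕ} (hm : 9 ≤ m) : ∃ u : (Fin (m + 1) → ℝ) → ℝ,
    ContDiff ℝ (⊤ : ℕ∞) u ∧ (∀ x, (hess u x).PosDef) ∧ AffineMaximal u ∧
    ∀ t : ℝ, u (Pi.single 0 t) = Real.sqrt (1 + t ^ 2) := by
  obtain ⟨p, p1, C, C1, z, z1, H⟩ := exists_reduced hm
  obtain ⟨P, P0, HP⟩ := exists_primitive fun s hs => (H s hs).1
  let φ : ℝ → ℝ := fun s => Real.exp (P s)
  let φ1 : ℝ → ℝ := fun s => Real.exp (P s) * p s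
  let φ2 : ℝ → ℝ := fun s => Real.exp (P s) * (p s ^ 2 + p1 s)
  have h0 : ∀ s, 0 ≤ s → 0 < φ s := fun s _ => Real.exp_pos _
  have h1 : ∀ s, 0 ≤ s → HasDerivAt φ (φ1 s) s := fun s hs => (HP s hs).1.exp
  have h2 : ∀ s, 0 ≤ s → HasDerivAt φ1 (φ2 s) s := fun s hs =>
    ((h1 s hs).mul (H s hs).2.2.2.1).congr_deriv (by simp only [φ, φ1, φ2]; ring)
  have h3 : ∀ s : ℝ, 0 ≤ s → HasDerivAt (fun _ : ℝ => (0 : ℝ)) ((fun _ => 0) s) s :=
    fun s _ => hasDerivAt_const s 0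
  let l : ℝ → ℝ := fun s =>
    -((m + 2) / (m + 3)) * (m * Real.log (p s) + Real.log (C s) + (m + 1) * P s)
  have h5 : ∀ s, 0 ≤ s → HasDerivAt l (z s) s := fun s hs => by
    obtain ⟨-, p0, C0, dp, dC, -, -, hz, -⟩ := H s hs
    rw [hz]
    exact ((((dp.log p0.ne').const_mul _).add (dC.log C0.ne')).add
      ((HP s hs).1.const_mul _)).const_mul _
  have h6 : ∀ s, 0 ≤ s → HasDerivAt z (z1 s) s := fun s hs => (H s hs).2.2.2.2.2.1
  let u : (Fin (m + 1) → ℝ) → ℝ := ans (1 / 2) φ fun _ => 0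
  have hu : ∀ x, u x = Real.sqrt (φ (sq x) + x 0 ^ 2) := fun x => by
    have := h0 _ (sq_nonneg' x)
    simp only [u, ans, add_zero]
    rw [Real.sqrt_eq_rpow, Real.rpow_def_of_pos (by positivity), mul_comm]
  have key : ∀ x, ∃ α a b c, hess u x = mat α a b c (fun j => x j.succ) ∧
      α = u x * φ1 (sq x) / (φ (sq x) + x 0 ^ 2) ∧
      a = u x * (2 * φ2 (sq x) / (φ (sq x) + x 0 ^ 2) - φ1 (sq x) ^ 2 / (φ (sq x) + x 0 ^ 2) ^ 2) ∧
      b = -(u x * x 0 * φ1 (sq x) / (φ (sq x) + x 0 ^ 2) ^ 2) ∧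
      c = u x * φ (sq x) / (φ (sq x) + x 0 ^ 2) ^ 2 ∧ 0 < α ∧ 0 < c ∧
      c * (α + a * sq x) - b ^ 2 * sq x =
        φ (sq x) ^ 2 * p (sq x) * C (sq x) / (φ (sq x) + x 0 ^ 2) ^ 2 := by
    intro x
    have f0 := h0 _ (sq_nonneg' x)
    obtain ⟨-, p0, C0, -, -, -, hG, -, -⟩ := H _ (sq_nonneg' x)
    have u0 : 0 < u x := Real.exp_pos _
    have u2 : u x ^ 2 = φ (sq x) + x 0 ^ 2 := by rw [hu, Real.sq_sqrt (by positivity)]
    have f1 : 0 < φ1 (sq x) := mul_pos f0 p0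
    refine ⟨_, _, _, _, ?_, rfl, rfl, rfl, rfl, by positivity, by positivity, ?_⟩
    · rw [hess_ans h0 h1 h2 h3 h3 x rfl rfl rfl rfl rfl]
      congr 1 <;> field_simp <;> ring
    · simp only [φ, φ1, φ2] at u2 f0 ⊢
      generalize Real.exp (P (sq x)) = F at u2 f0 ⊢
      field_simp
      linear_combination (u x ^ 2 * (F + x 0 ^ 2)) * hG +
        ((F + x 0 ^ 2) * p (sq x) * C (sq x)) * u2
  have hw : wfun u = ans ((m + 2) / 2) φ l := by
    ext x
    obtain ⟨α, a, b, c, hh, hα, -, -, -, α0, c0, hD⟩ := key x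
    have f0 := h0 _ (sq_nonneg' x)
    obtain ⟨-, p0, C0, -⟩ := H _ (sq_nonneg' x)
    have q0 : 0 < φ (sq x) + x 0 ^ 2 := by positivity
    have u0 : 0 < u x := Real.exp_pos _
    have lα : Real.log α = Real.log (p (sq x)) + P (sq x) - Real.log (φ (sq x) + x 0 ^ 2) / 2 := by
      rw [hα, Real.log_div (mul_pos u0 (mul_pos f0 p0)).ne' q0.ne', Real.log_mul u0.ne'
        (mul_pos f0 p0).ne', Real.log_mul f0.ne' p0.ne']
      simp only [u, ans, Real.log_exp, φ]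
      ring
    rw [wfun, hh, mat_det rfl α0.ne' c0.ne']
    change (α ^ m * (c * (α + a * sq x) - b ^ 2 * sq x) / α) ^ _ = _
    rw [hD, Real.rpow_def_of_pos (by positivity), ans, Real.log_div (by positivity) α0.ne',
      Real.log_mul (by positivity) (by positivity), Real.log_pow, Real.log_div (by positivity)
      (by positivity), Real.log_mul (by positivity) C0.ne', Real.log_mul (by positivity) p0.ne',
      Real.log_pow, Real.log_pow, lα]
    simp only [l, φ, Real.log_exp]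
    congr 1
    push_cast
    field_simp
    ring
  refine ⟨u, ?_, fun x => ?_, fun x => ?_, fun t => ?_⟩
  · rw [contDiff_iff_contDiffAt]
    intro x
    have c1 : ContDiffAt ℝ (⊤ : ℕ∞) (sq (m := m)) x := by
      unfold sq
      fun_prop
    have c2 : ContDiffAt ℝ (⊤ : ℕ∞) (fun x : Fin (m + 1) → ℝ => φ (sq x) + x 0 ^ 2) x :=
      ((HP _ (sq_nonneg' x)).2.comp x c1).exp.add (by fun_prop)
    have := h0 _ (sq_nonneg' x)
    exact ((contDiffAt_const.mul (c2.log (by positivity))).add contDiffAt_const).exp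
  · obtain ⟨α, a, b, c, hh, -, -, -, -, α0, c0, hD⟩ := key x
    have f0 := h0 _ (sq_nonneg' x)
    obtain ⟨-, p0, C0, -⟩ := H _ (sq_nonneg' x)
    rw [hh]
    exact mat_posDef (s := sq x) rfl α0 c0 (by rw [hD]; positivity)
  · obtain ⟨α, a, b, c, hh, hα, ha, hb, hc, α0, c0, hD⟩ := key x
    have f0 := h0 _ (sq_nonneg' x)
    obtain ⟨-, p0, C0, -, -, -, hG, -, hE⟩ := H _ (sq_nonneg' x)
    rw [hw, hess_ans h0 h1 h2 h5 h6 x rfl rfl rfl rfl rfl, hh]
    refine mat_eq (s := sq x) rfl α0.ne' (by rw [hD]; positivity) ?_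
    have u2 : u x ^ 2 = φ (sq x) + x 0 ^ 2 := by rw [hu, Real.sq_sqrt (by positivity)]
    have u0 : 0 < u x := Real.exp_pos _
    rw [hD, hα, ha, hb, hc]
    simp only [φ, φ1, φ2] at u2 f0 ⊢
    generalize Real.exp (P (sq x)) = F at u2 f0 ⊢
    generalize ans _ _ l x = W
    rw [← u2]
    field_simp
    rw [show x 0 ^ 2 = u x ^ 2 - F by linarith]
    linear_combination (F ^ 2 * p (sq x) * W * (4 * u x ^ 4)) * hE -
      (F ^ 2 * p (sq x) * W * (4 * u x ^ 2 * F * (m + 2) * (m - 1))) * hG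
  · rw [hu]
    simp [sq, φ, P0]

end Vale.Agent.P252
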